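import Vale.Agent.P254.H543.CP

/-!
K2: the contact equation.  If the quadratic form `X ↦ ∑ tr (A_a X A_a X)` is bounded by
`tr (X X)` on positive semidefinite matrices and the bound is attained at a positive
semidefinite `D`, then `D` is a fixed point of `X ↦ ∑ A_a X A_a`, and every `A_a` preserves
the kernel of `D`.
-/

namespace Vale.Agent.P254.H420

open Matrix
open scoped ComplexOrder MatrixOrder

variable {n : Type*} [Fintype n] [DecidableEq n] {ι : Type*} [Fintype ι]

/-- bound on symmetric matrices -/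
theorem sym_bound (A : ι → Matrix n n ℝ) (hA : ∀ a, (A a)ᵀ = A a)
    (h : ∀ D : Matrix n n ℝ, D.PosSemidef → ∑ a, (A a * D * A a * D).trace ≤ (D * D).trace)
    {X : Matrix n n ℝ} (hX : Xᵀ = X) :
    ∑ a, (A a * X * A a * X).trace ≤ (X * X).trace := by
  have := (abs_le.1 (H543.cp_bound A hA h X)).2
  rwa [hX] at this

theorem sym_bound_neg (A : ι → Matrix n n ℝ) (hA : ∀ a, (A a)ᵀ = A a)
    (h : ∀ D : Matrix n n ℝ, D.PosSemidef → ∑ a, (A a * D * A a * D).trace ≤ (D * D).trace)
    {X : Matrix n n ℝ} (hX : Xᵀ = X) :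
    -(X * X).trace ≤ ∑ a, (A a * X * A a * X).trace := by
  have := (abs_le.1 (H543.cp_bound A hA h X)).1
  rwa [hX] at this

/-- **K2.** The contact equation. -/
theorem contact_eig (A : ι → Matrix n n ℝ) (hA : ∀ a, (A a)ᵀ = A a)
    (h : ∀ D : Matrix n n ℝ, D.PosSemidef → ∑ a, (A a * D * A a * D).trace ≤ (D * D).trace)
    {D : Matrix n n ℝ} (hD : Dᵀ = D)
    (hc : ∑ a, (A a * D * A a * D).trace = (D * D).trace) :
    ∑ a, A a * D * A a = D := by
  set Z : Matrix n n ℝ := D - ∑ a, A a * D * A a with hZ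
  have hZt : Zᵀ = Z := by
    rw [hZ, transpose_sub, hD, transpose_sum]
    congr 1
    refine Finset.sum_congr rfl fun a _ => ?_
    rw [transpose_mul, transpose_mul, hA, hD, Matrix.mul_assoc]
  -- first variation
  have key : ∀ e : ℝ, 0 ≤ 2 * e * (Z * Z).trace
      + e ^ 2 * ((Z * Z).trace - ∑ a, (A a * Z * A a * Z).trace) := by
    intro e
    have h1 := sym_bound A hA h (X := D + e • Z) (by rw [transpose_add, transpose_smul, hD, hZt])
    have e1 : ((D + e • Z) * (D + e • Z)).trace
        = (D * D).trace + 2 * e * (D * Z).trace + e ^ 2 * (Z * Z).trace := by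
      simp only [Matrix.add_mul, Matrix.mul_add, Matrix.mul_smul, Matrix.smul_mul, trace_add,
        trace_smul, smul_eq_mul]
      rw [trace_mul_comm Z D]
      ring
    have e2 : ∀ a, (A a * (D + e • Z) * A a * (D + e • Z)).trace
        = (A a * D * A a * D).trace + 2 * e * (A a * D * A a * Z).trace
          + e ^ 2 * (A a * Z * A a * Z).trace := by
      intro a
      have e3 : (A a * Z * A a * D).trace = (A a * D * A a * Z).trace := by
        rw [Matrix.mul_assoc (A a * Z), trace_mul_comm]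
        simp only [Matrix.mul_assoc]
      simp only [Matrix.add_mul, Matrix.mul_add, Matrix.mul_smul, Matrix.smul_mul, trace_add,
        trace_smul, smul_eq_mul, e3]
      ring
    rw [e1, Finset.sum_congr rfl fun a _ => e2 a, Finset.sum_add_distrib,
      Finset.sum_add_distrib, ← Finset.mul_sum, ← Finset.mul_sum, hc] at h1
    have e4 : (Z * Z).trace = (D * Z).trace - ∑ a, (A a * D * A a * Z).trace := by
      conv_lhs => rw [hZ]
      rw [← hZ, Matrix.sub_mul, trace_sub, Matrix.sum_mul, trace_sum]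
    have e5 : (D * Z).trace = (Z * Z).trace + ∑ a, (A a * D * A a * Z).trace := by linarith
    rw [e5] at h1
    nlinarith
  have hZ0 : (Z * Z).trace = 0 := by
    have hnn : 0 ≤ (Z * Z).trace := by
      have := (posSemidef_conjTranspose_mul_self Z).trace_nonneg
      rwa [conjTranspose_eq_transpose_of_trivial, hZt] at this
    by_contra hne
    have hpos : 0 < (Z * Z).trace := lt_of_le_of_ne hnn (Ne.symm hne)
    have hup : (Z * Z).trace - ∑ a, (A a * Z * A a * Z).trace ≤ 2 * (Z * Z).trace := by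
      have := sym_bound_neg A hA h hZt
      linarith
    have := key (-(1 / 2))
    nlinarith
  have hZ00 : Z = 0 := by
    have : (Zᴴ * Z).trace = 0 := by rwa [conjTranspose_eq_transpose_of_trivial, hZt]
    exact (trace_conjTranspose_mul_self_eq_zero_iff).1 this
  rw [hZ, sub_eq_zero] at hZ00
  exact hZ00.symm

/-- every `A_a` preserves the kernel of a positive semidefinite fixed point -/
theorem ker_inv (A : ι → Matrix n n ℝ) (hA : ∀ a, (A a)ᵀ = A a)
    {D : Matrix n n ℝ} (hD : D.PosSemidef) (hfix : ∑ a, A a * D * A a = D)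
    {v : n → ℝ} (hv : D *ᵥ v = 0) (a : ι) : D *ᵥ (A a *ᵥ v) = 0 := by
  have hq : ∀ w : n → ℝ, 0 ≤ w ⬝ᵥ (D *ᵥ w) := by
    intro w
    simpa using hD.dotProduct_mulVec_nonneg w
  have h0 : ∑ b, (A b *ᵥ v) ⬝ᵥ (D *ᵥ (A b *ᵥ v)) = 0 := by
    have : v ⬝ᵥ ((∑ b, A b * D * A b) *ᵥ v) = 0 := by rw [hfix, hv]; simp
    rw [Matrix.sum_mulVec, dotProduct_sum] at this
    rw [← this]
    refine Finset.sum_congr rfl fun b _ => ?_
    rw [← mulVec_mulVec, ← mulVec_mulVec, dotProduct_mulVec v (A b), ← mulVec_transpose, hA]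
  have h1 : (A a *ᵥ v) ⬝ᵥ (D *ᵥ (A a *ᵥ v)) = 0 :=
    (Finset.sum_eq_zero_iff_of_nonneg fun b _ => hq _).1 h0 a (Finset.mem_univ a)
  have h2 := hD.dotProduct_mulVec_zero_iff (A a *ᵥ v)
  simp only [star_trivial] at h2
  exact h2.1 h1

/-- In a basis which diagonalises `D`: the entries of `A_a` between the kernel and the range
of `D` vanish. -/
theorem entry_zero (A : ι → Matrix n n ℝ) (hA : ∀ a, (A a)ᵀ = A a)
    {d : n → ℝ} (hd : ∀ i, 0 ≤ d i) (hfix : ∑ a, A a * diagonal d * A a = diagonal d)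
    {i j : n} (hi : d i = 0) (hj : 0 < d j) (a : ι) : A a i j = 0 ∧ A a j i = 0 := by
  have hps : (diagonal d).PosSemidef := posSemidef_diagonal_iff.2 hd
  have hv : diagonal d *ᵥ (Pi.single i 1 : n → ℝ) = 0 := by
    funext k
    rw [mulVec_diagonal]
    by_cases hk : k = i
    · subst hk; simp [hi]
    · simp [Pi.single_eq_of_ne hk]
  have h1 := congrFun (ker_inv A hA hps hfix hv a) j
  rw [mulVec_diagonal] at h1
  simp only [mulVec_single_one, col_apply, Pi.zero_apply, mul_eq_zero] at h1
  have h2 : A a j i = 0 := h1.resolve_left hj.ne'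
  exact ⟨by rw [← hA a, transpose_apply]; exact h2, h2⟩

/-- diagonal entries of the fixed point equation -/
theorem fix_diag (A : ι → Matrix n n ℝ) {d : n → ℝ}
    (hfix : ∑ a, A a * diagonal d * A a = diagonal d) (i j : n) :
    ∑ a, ∑ k, A a i k * d k * A a k j = if i = j then d i else 0 := by
  have h := congrFun (congrFun hfix i) j
  rw [Matrix.sum_apply] at h
  rw [diagonal_apply] at h
  rw [← h]
  refine Finset.sum_congr rfl fun a _ => ?_
  rw [Matrix.mul_apply]
  refine Finset.sum_congr rfl fun k _ => ?_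
  rw [mul_diagonal]

end Vale.Agent.P254.H420
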